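import Mathlib
import Vale.Agent.H52.AR.Syz

/-!
# P195 (Auslander-Reiten conjecture): the syzygy criterion

Let `R` be any ring and let

  `0 → N (i+1) → P i → N i → 0`   (`i < n`)

be short exact sequences of left `R`-modules with every `P i` finitely generated projective, so
that `N i` is an `i`-th syzygy of `M = N 0`.  Assume that the `n`-th syzygy `N n` is a direct
summand of a finite direct sum of copies of `N a` and of `R` for some `a < n`, and that
`Ext^j (M, M) = 0` and `Ext^j (M, R) = 0` for `1 ≤ j ≤ n`.  Then `M` is projective.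

So the conclusion of the conjecture holds for every module one of whose syzygies is built, up to
direct summands, from an earlier syzygy and from `R` (for instance every eventually periodic
module), over an arbitrary ring, and only vanishing in the degrees `1, …, n` is used.
-/

namespace Vale.Agent.Results.P195.A_SyzygyCriterion

open CategoryTheory Abelian

universe u

theorem result (R : Type u) [Ring R] (n : ℕ) (N P : ℕ → Type u)
    [∀ i, AddCommGroup (N i)] [∀ i, Module R (N i)]
    [∀ i, AddCommGroup (P i)] [∀ i, Module R (P i)]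
    (ι : ∀ i, N (i + 1) →ₗ[R] P i) (π : ∀ i, P i →ₗ[R] N i)
    (hι : ∀ i < n, Function.Injective (ι i))
    (hπ : ∀ i < n, Function.Surjective (π i))
    (hex : ∀ i < n, Function.Exact (ι i) (π i))
    (hP : ∀ i < n, Module.Projective R (P i) ∧ Module.Finite R (P i))
    (hMM : ∀ j, 1 ≤ j → j ≤ n →
      Subsingleton (Ext (ModuleCat.of R (N 0)) (ModuleCat.of R (N 0)) j))
    (hMR : ∀ j, 1 ≤ j → j ≤ n →
      Subsingleton (Ext (ModuleCat.of R (N 0)) (ModuleCat.of R R) j))
    (a k : ℕ) (ha : a < n)
    (s : N n →ₗ[R] (Fin k → N a × R)) (r : (Fin k → N a × R) →ₗ[R] N n)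
    (hrs : ∀ x, r (s x) = x) :
    Module.Projective R (N 0) :=
  Vale.Agent.H52.AR.syzygy_criterion n N P ι π hι hπ hex hP hMM hMR a k ha s r hrs

end Vale.Agent.Results.P195.A_SyzygyCriterion
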