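import Vale.Agent.H47.ARC.Cube

/-!
# P195: the Auslander-Reiten conjecture for Artin algebras with radical cube zero

Let `R` be a commutative artinian ring and `A` an `R`-algebra which is finitely generated as an
`R`-module (an Artin algebra), with `(rad A)^3 = 0`.  No further assumption is made: `A` need not
be local, commutative, self-injective or split.  If `M` is a finitely generated left `A`-module
with `Ext^i(M, M) = 0` and `Ext^i(M, A) = 0` for all `i ≥ 1` (condition (AR)), then `M` is
projective.

Sketch of the proof.  Suppose `M` is not projective and let `X_m` be the `m`-th syzygy of `M` in a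
minimal projective resolution; all `X_m` are nonzero.  Condition (AR) gives
`Ext^n(X_j, X_i) = 0` for all `n ≥ 1` and `j ≥ i`, in particular every map `X_(j+1) → X_i`
extends to the projective cover of `X_j` when `j ≥ i`.  For `i ≥ 1` the module `X_i` has Loewy
length at most two; write `U_i` for its radical and `V_i` for its top, both semisimple.  The
extension property yields `length Hom(X_m, V_i) = length Hom(X_(m+1), U_i)` for all `m > i`
(lengths over `R`), and `length Hom(X_(i+1), U_i) < length Hom(X_i, V_i)`, the latter because the
projection `X_i → V_i` is not in the image of the natural comparison map.  Let `S_1, …, S_r` be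
the simple modules and `μ_m = (length Hom(X_m, S_k))_k`.  Decomposing `U_i` and `V_i` into simple
modules shows that there is a linear functional `Ψ_i` on pairs of vectors with
`Ψ_i(μ_m, μ_(m+1)) = 0` for `m > i` and `Ψ_i(μ_i, μ_(i+1)) > 0`.  But the vectors
`p_m = (μ_m, μ_(m+1))` lie in a space of dimension `2r`, so some `p_i` with `i ≥ 1` lies in the
span of the `p_m` with `m > i`, which is absurd.
-/

namespace Vale.Agent.Results.P195.B_RadicalCubeZero

open CategoryTheory Abelian

universe u v

theorem result {R : Type v} [CommRing R] [IsArtinianRing R] {A : Type u} [Ring A] [Algebra R A]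
    [Module.Finite R A] (hJ : Ring.jacobson A ^ 3 = ⊥)
    (M : ModuleCat.{u} A) [Module.Finite A M]
    (hMM : ∀ i : ℕ, 1 ≤ i → Subsingleton (Ext M M i))
    (hMA : ∀ i : ℕ, 1 ≤ i → Subsingleton (Ext M (ModuleCat.of A A) i)) :
    Module.Projective A M :=
  Vale.Agent.H47.ARC.arc_cube (R := R) hJ M
    (fun i h1 x => (hMM i h1).elim x 0)
    (fun i h1 x => (hMA i h1).elim x 0)

end Vale.Agent.Results.P195.B_RadicalCubeZero
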