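import Vale.Agent.H47.ARC.Bounded

/-!
# P195: radical cube zero, vanishing of Ext in a finite range of degrees

Let `R` be a commutative artinian ring and `A` an `R`-algebra which is finitely generated as an
`R`-module (an Artin algebra), with `(rad A)^3 = 0`.  Let `I 1, …, I r` be left ideals of `A`
such that every simple left `A`-module is isomorphic to one of the modules `A ⧸ I k`; for
instance `r` can be the number of isomorphism classes of simple `A`-modules, and `r = 1`,
`I 1 = rad A` if `A` is local.  If `M` is a finitely generated left `A`-module with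
`Ext^i(M, M) = 0` for `1 ≤ i ≤ 2 r + 1` and `Ext^i(M, A) = 0` for `1 ≤ i ≤ 2 r + 2`, then `M` is
projective.  In particular condition (AR) forces projectivity over every Artin algebra with
radical cube zero.

Sketch of the proof.  Suppose `M` is not projective and let `X_m` be the `m`-th syzygy of `M` in a
minimal projective resolution; `X_m` is nonzero for `m ≤ 2 r + 2`.  The hypotheses give
`Ext^1(X_j, X_i) = 0` for `1 ≤ i ≤ j ≤ 2 r + 1`, so every map `X_(j+1) → X_i` extends to the
projective cover of `X_j`.  For `i ≥ 1` the module `X_i` has Loewy length at most two, with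
radical `U_i` and top `V_i`, both semisimple.  The extension property yields
`length Hom(X_m, V_i) = length Hom(X_(m+1), U_i)` for `i < m ≤ 2 r + 1` (lengths over `R`) and
`length Hom(X_(i+1), U_i) < length Hom(X_i, V_i)`.  With
`μ_m = (length Hom(X_m, A ⧸ I k))_k` and `p_m = (μ_m, μ_(m+1))` this says that there is a linear
functional `Ψ_i` with `Ψ_i(p_m) = 0` for `i < m ≤ 2 r + 1` and `Ψ_i(p_i) > 0`.  But
`p_1, …, p_(2 r + 1)` are `2 r + 1` vectors in a space of dimension `2 r`, so some `p_i` lies in
the span of the later ones, which is absurd.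
-/

namespace Vale.Agent.Results.P195.C_RadicalCubeZeroFiniteRange

open CategoryTheory Abelian

universe u v

theorem result {R : Type v} [CommRing R] [IsArtinianRing R] {A : Type u} [Ring A] [Algebra R A]
    [Module.Finite R A] (hJ : Ring.jacobson A ^ 3 = ⊥)
    (r : ℕ) (I : Fin r → Ideal A)
    (hI : ∀ (S : Type u) [AddCommGroup S] [Module A S] [IsSimpleModule A S],
      ∃ k, Nonempty (S ≃ₗ[A] (A ⧸ I k)))
    (M : ModuleCat.{u} A) [Module.Finite A M]
    (hMM : ∀ i : ℕ, 1 ≤ i → i ≤ 2 * r + 1 → Subsingleton (Ext M M i))
    (hMA : ∀ i : ℕ, 1 ≤ i → i ≤ 2 * r + 2 → Subsingleton (Ext M (ModuleCat.of A A) i)) :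
    Module.Projective A M :=
  Vale.Agent.H47.ARC.arc_cube_bdd (R := R) hJ I hI M
    (fun i h1 h2 x => (hMM i h1 h2).elim x 0)
    (fun i h1 h2 x => (hMA i h1 h2).elim x 0)

end Vale.Agent.Results.P195.C_RadicalCubeZeroFiniteRange
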