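import Mathlib
import Vale.Agent.Results.P195.A_SyzygyCriterion
import Vale.Agent.Results.P195.B_RadicalCubeZero
import Vale.Agent.Results.P195.C_RadicalCubeZeroFiniteRange

/-!
# P195 (Auslander-Reiten conjecture): the results proved here, in one statement

1. Let `A` be an Artin algebra (a module-finite algebra over a commutative artinian ring `R`)
   with `(rad A) ^ 3 = 0` and `M` a finitely generated `A`-module.
   (a) If `Ext^i(M, M) = 0` and `Ext^i(M, A) = 0` for all `i ≥ 1`, then `M` is projective.
   (b) If every simple `A`-module is isomorphic to one of `A / I_1, …, A / I_r` and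
   `Ext^i(M, M) = 0` for `1 ≤ i ≤ 2 r + 1`, `Ext^i(M, A) = 0` for `1 ≤ i ≤ 2 r + 2`,
   then `M` is projective.
2. Over any ring: a module `N 0` with syzygies `N i` (short exact sequences
   `0 → N (i + 1) → P i → N i → 0`, `P i` finitely generated projective, `i < n`) such that
   `N n` is a direct summand of a finite power of `N a × R` for some `a < n`, and with
   `Ext^j(N 0, N 0) = 0`, `Ext^j(N 0, R) = 0` for `1 ≤ j ≤ n`, is projective.

The statements are those of the hand-ins `B_RadicalCubeZero`,
`C_RadicalCubeZeroFiniteRange` and `A_SyzygyCriterion` of this folder.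
-/

namespace Vale.Agent.Results.P195.A0_Combined

open CategoryTheory Abelian

universe u v

theorem result :
    (∀ (R : Type v) [CommRing R] [IsArtinianRing R] (A : Type u) [Ring A] [Algebra R A]
        [Module.Finite R A], Ring.jacobson A ^ 3 = ⊥ →
      ∀ (M : ModuleCat.{u} A) [Module.Finite A M],
        ((∀ i : ℕ, 1 ≤ i → Subsingleton (Ext M M i)) →
          (∀ i : ℕ, 1 ≤ i → Subsingleton (Ext M (ModuleCat.of A A) i)) →
          Module.Projective A M) ∧
        (∀ (r : ℕ) (I : Fin r → Ideal A),
          (∀ (S : Type u) [AddCommGroup S] [Module A S] [IsSimpleModule A S],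
            ∃ k, Nonempty (S ≃ₗ[A] (A ⧸ I k))) →
          (∀ i : ℕ, 1 ≤ i → i ≤ 2 * r + 1 → Subsingleton (Ext M M i)) →
          (∀ i : ℕ, 1 ≤ i → i ≤ 2 * r + 2 → Subsingleton (Ext M (ModuleCat.of A A) i)) →
          Module.Projective A M)) ∧
    (∀ (R : Type u) [Ring R] (n : ℕ) (N P : ℕ → Type u)
        [∀ i, AddCommGroup (N i)] [∀ i, Module R (N i)]
        [∀ i, AddCommGroup (P i)] [∀ i, Module R (P i)]
        (ι : ∀ i, N (i + 1) →ₗ[R] P i) (π : ∀ i, P i →ₗ[R] N i),
      (∀ i < n, Function.Injective (ι i)) →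
      (∀ i < n, Function.Surjective (π i)) →
      (∀ i < n, Function.Exact (ι i) (π i)) →
      (∀ i < n, Module.Projective R (P i) ∧ Module.Finite R (P i)) →
      (∀ j, 1 ≤ j → j ≤ n →
        Subsingleton (Ext (ModuleCat.of R (N 0)) (ModuleCat.of R (N 0)) j)) →
      (∀ j, 1 ≤ j → j ≤ n →
        Subsingleton (Ext (ModuleCat.of R (N 0)) (ModuleCat.of R R) j)) →
      ∀ (a k : ℕ), a < n →
      ∀ (s : N n →ₗ[R] (Fin k → N a × R)) (r : (Fin k → N a × R) →ₗ[R] N n),
        (∀ x, r (s x) = x) →
        Module.Projective R (N 0)) :=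
  ⟨fun R _ _ _ _ _ _ hJ M _ =>
      ⟨fun hMM hMA => Vale.Agent.Results.P195.B_RadicalCubeZero.result (R := R) hJ M hMM hMA,
        fun r I hI hMM hMA =>
          Vale.Agent.Results.P195.C_RadicalCubeZeroFiniteRange.result (R := R) hJ r I hI M
            hMM hMA⟩,
    fun R _ n N P _ _ _ _ ι π hι hπ hex hP hMM hMR a k ha s r hrs =>
      Vale.Agent.Results.P195.A_SyzygyCriterion.result R n N P ι π hι hπ hex hP hMM hMR
        a k ha s r hrs⟩

end Vale.Agent.Results.P195.A0_Combined
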