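import Vale.Agent.H47.ARC.Bridge

/-!
# P195: the Auslander-Reiten conjecture for local Artin algebras with radical cube zero

Let `R` be a commutative artinian ring and `A` an `R`-algebra which is finitely generated as an
`R`-module (an Artin algebra).  Assume that `A` is a local ring (not necessarily commutative, and
with no assumption on the division ring `A / rad A`) and that `(rad A)^3 = 0`.  If `M` is a
finitely generated left `A`-module with `Ext^i(M, M) = 0` for `i = 1, 2, 3` and
`Ext^i(M, A) = 0` for `i = 1, 2, 3, 4`, then `M` is projective.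

Sketch of the proof.  Suppose `M` is not projective and take minimal projective presentations
`0 → M₁ → Q → M → 0`, `0 → M₂ → P₀ → M₁ → 0`, `0 → M₃ → P₁ → M₂ → 0`, `0 → M₄ → P₂ → M₃ → 0`.
Since `(rad A)^3 = 0`, the modules `M₁` and `M₂` have Loewy length at most two, and they are
nonzero.  The hypotheses give `Ext^1(M_j, M_i) = 0` for `(j, i) = (1,1), (2,1), (3,1), (2,2),
(3,2)`, that is, every map `M_(j+1) → M_i` extends to the projective cover of `M_j`.  For a
module `X` of Loewy length at most two with radical `U` and top `V` this yields isomorphisms of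
`R`-modules `Hom(M_n, V) ≅ Hom(M_(n+1), U)` (the analogue of `Ext^n(X, V) ≅ Ext^(n+1)(X, U)`),
and for `n = 0` a surjection with nonzero kernel.  As `A` is local, `U` and `V` are powers of the
simple module `S`; writing `m_n` for the `R`-length of `Hom(M_n, S)` one gets
`t m₂ = b m₃`, `t m₃ = b m₄`, `t' m₃ = b' m₄` and `b' m₃ < t' m₂`, which is contradictory.
-/

namespace Vale.Agent.Results.P195.D_LocalRadicalCubeZero

open CategoryTheory Abelian

universe u v

theorem result {R : Type v} [CommRing R] [IsArtinianRing R] {A : Type u} [Ring A] [Algebra R A]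
    [Module.Finite R A] [IsLocalRing A] (hJ : Ring.jacobson A ^ 3 = ⊥)
    (M : ModuleCat.{u} A) [Module.Finite A M]
    (hMM : ∀ i : ℕ, 1 ≤ i → i ≤ 3 → Subsingleton (Ext M M i))
    (hMA : ∀ i : ℕ, 1 ≤ i → i ≤ 4 → Subsingleton (Ext M (ModuleCat.of A A) i)) :
    Module.Projective A M :=
  Vale.Agent.H47.ARC.arc_local (R := R) hJ M
    (fun i h1 h3 x => (hMM i h1 h3).elim x 0)
    (fun i h1 h4 x => (hMA i h1 h4).elim x 0)

end Vale.Agent.Results.P195.D_LocalRadicalCubeZero
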